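import Mathlib
import Vale.Agent.P309.Defs
import Vale.Agent.P309.Arith

/-!
# P309, Q1: memory-sample tradeoff for noiseless Gaussian linear regression

With at most `d ^ 2 / 100` bits of memory, every learner (randomized, with arbitrary measurable
transition, stopping and output rules that may depend on the index) that succeeds at accuracy `ε`
needs at least `d * log (1 / ε) / 100` samples.
-/

namespace Vale.Agent.Results.P309.MemorySample

open Vale.Agent.P309

/-- For all `d ≥ 200` and all `0 < ε < exp (-12)`: a learner whose persistent state lies in a set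
of `N ≤ 2 ^ M` elements, with `M ≤ d ^ 2 / 100`, and which succeeds at accuracy `ε` with horizon
`T`, satisfies `T ≥ d * log (1 / ε) / 100`. -/
theorem result (d N T : ℕ) (M ε : ℝ) (hd : 200 ≤ d) (hε : 0 < ε) (hε' : ε < Real.exp (-12))
    (hM : M ≤ (d : ℝ) ^ 2 / 100) (hN : (N : ℝ) ≤ (2 : ℝ) ^ M)
    (L : Learner d N) (hL : L.Succeeds T ε) :
    (d : ℝ) * Real.log (1 / ε) / 100 ≤ (T : ℝ) :=
  tradeoff d N T ε hd hε hε'
    (hN.trans (Real.rpow_le_rpow_of_exponent_le (by norm_num) hM)) L hL

end Vale.Agent.Results.P309.MemorySample
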